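/-
P235-M, helper168.  RED-LINE, part 1: words of permutations, gates, and the static bound
(greedy configuration).

Conventions of helper549 (namespace VPBruhat): products are compositions, `flux a v` is the number
of strands `p < a` with `a ≤ v p`.
-/
import Vale.Agent.P235.R2.RED.Defs

namespace VPRed

open Equiv Finset VPBruhat

variable {m : ℕ}

/-- the product `c (y-1) * ... * c x` of the steps `x, ..., y-1` -/
def wprod (c : ℕ → Perm (Fin m)) (x : ℕ) : ℕ → Perm (Fin m)
  | 0 => 1
  | y + 1 => if x ≤ y then c y * wprod c x y else 1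

theorem wprod_self (c : ℕ → Perm (Fin m)) (x : ℕ) : wprod c x x = 1 := by
  cases x with
  | zero => rfl
  | succ x =>
    show (if x + 1 ≤ x then _ else _) = _
    rw [if_neg (by omega)]

theorem wprod_succ (c : ℕ → Perm (Fin m)) {x y : ℕ} (h : x ≤ y) :
    wprod c x (y + 1) = c y * wprod c x y := by
  show (if x ≤ y then _ else _) = _
  rw [if_pos h]

theorem wprod_mul (c : ℕ → Perm (Fin m)) {x y z : ℕ} (h : x ≤ y) (h' : y ≤ z) :
    wprod c x z = wprod c y z * wprod c x y := by
  induction z, h' using Nat.le_induction with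
  | base => rw [wprod_self, one_mul]
  | succ z hz ih => rw [wprod_succ c (h.trans hz), wprod_succ c hz, ih, mul_assoc]

theorem wprod_congr {c c' : ℕ → Perm (Fin m)} {x y : ℕ} (h : ∀ t, x ≤ t → t < y → c t = c' t)
    (hxy : x ≤ y) : wprod c x y = wprod c' x y := by
  induction y, hxy using Nat.le_induction with
  | base => rw [wprod_self, wprod_self]
  | succ y hy ih =>
    rw [wprod_succ c hy, wprod_succ c' hy, ih (fun t h1 h2 => h t h1 (by omega)),
      h y hy (by omega)]

/-- the number of `p < a` with `b ≤ v p` -/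
def rr (a b : ℕ) (v : Perm (Fin m)) : ℕ :=
  (univ.filter (fun p : Fin m => (p : ℕ) < a ∧ b ≤ (v p : ℕ))).card

theorem rr_self (a : ℕ) (v : Perm (Fin m)) : rr a a v = flux a v := rfl

/-- the Young subgroup of the levels `J` -/
noncomputable def gates (m : ℕ) (J : Set ℕ) : Finset (Perm (Fin m)) := by
  classical
  exact univ.filter (fun v => ∀ c ∈ J, ∀ p : Fin m, (v p : ℕ) < c ↔ (p : ℕ) < c)

theorem mem_gates {J : Set ℕ} {v : Perm (Fin m)} :
    v ∈ gates m J ↔ ∀ c ∈ J, ∀ p : Fin m, (v p : ℕ) < c ↔ (p : ℕ) < c := by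
  classical
  unfold gates
  simp

theorem one_mem_gates (J : Set ℕ) : 1 ∈ gates m J := by
  rw [mem_gates]; intro c _ p; rfl

/-- (M*) for words with `N` steps, with constant `K`: for all Young subgroups there is a random
configuration which serves every window at every level up to the factor `K`. -/
def WordLaw (K : ℝ) (N : ℕ) : Prop :=
  ∀ (m : ℕ) (J : ℕ → Set ℕ),
    ∃ (ι : Type) (_ : Fintype ι) (w : ι → ℝ) (c : ι → ℕ → Perm (Fin m)),
      (∀ i, 0 ≤ w i) ∧ ∑ i, w i = 1 ∧ (∀ i t, c i t ∈ gates m (J t)) ∧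
      ∀ x y, x ≤ y → y ≤ N → ∀ (a : ℕ) (v : ℕ → Perm (Fin m)), (∀ t, v t ∈ gates m (J t)) →
        (flux a (wprod v x y) : ℝ) ≤ K * ∑ i, w i * (flux a (wprod (c i) x y) : ℝ)

theorem wprod_eq_win (c : ℕ → Perm (Fin m)) (x k : ℕ) :
    wprod c x (x + k) = Vale.Agent.P235.Red.win c x k := by
  induction k with
  | zero => rw [add_zero, wprod_self]; rfl
  | succ k ih =>
    rw [← add_assoc, wprod_succ c (Nat.le_add_right _ _), ih]
    rfl

theorem wordLaw_of_mStar {f : ℕ → ℝ} (hf : Vale.Agent.P235.Red.MStar f) (N : ℕ) :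
    WordLaw (f N) N := by
  intro m J
  obtain ⟨Ω, hΩ, p, v, hp, hs, hv, hserve⟩ := hf N m J
  refine ⟨Ω, hΩ, p, v, hp, hs, fun i t => mem_gates.2 (hv i t), fun x y hxy hy a w hw => ?_⟩
  obtain ⟨k, rfl⟩ := Nat.exists_eq_add_of_le hxy
  have := hserve x k a hy w (fun t => mem_gates.1 (hw t))
  simp only [wprod_eq_win]
  exact this

theorem gates_isDown (J : Set ℕ) : IsDown (gates m J) := by
  rintro v v' ⟨i, j, hij, hv, rfl⟩ h
  rw [mem_gates] at h ⊢
  intro c hc p
  have hi := h c hc i
  have hj := h c hc j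
  rw [Perm.mul_apply, swap_apply_left] at hi
  rw [Perm.mul_apply, swap_apply_right] at hj
  have hij' : (i : ℕ) < j := hij
  have hv' : ((v i : Fin m) : ℕ) < v j := hv
  by_cases h1 : p = i
  · subst h1; omega
  by_cases h2 : p = j
  · subst h2; omega
  have := h c hc p
  rw [Perm.mul_apply, swap_apply_of_ne_of_ne h1 h2] at this
  exact this

/-- number of positions in an interval -/
theorem card_pos {b u : ℕ} (hu : u ≤ m) :
    (univ.filter (fun p : Fin m => b ≤ (p : ℕ) ∧ (p : ℕ) < u)).card = u - b := by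
  have : (univ.filter (fun p : Fin m => b ≤ (p : ℕ) ∧ (p : ℕ) < u)).map Fin.valEmbedding =
      Finset.Ico b u := by
    ext x
    simp only [mem_map, mem_filter, mem_univ, true_and, Fin.valEmbedding_apply, mem_Ico]
    constructor
    · rintro ⟨p, hp, rfl⟩; exact hp
    · rintro ⟨h1, h2⟩; exact ⟨⟨x, by omega⟩, ⟨h1, h2⟩, rfl⟩
  rw [← Finset.card_map Fin.valEmbedding, this, Nat.card_Ico]

theorem rr_one {a b : ℕ} (ha : a ≤ m) : rr a b (1 : Perm (Fin m)) = a - b := by
  unfold rr
  rw [← card_pos (m := m) (b := b) ha]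
  congr 1
  ext p
  simp [and_comm]

theorem rr_zero {a : ℕ} (ha : a ≤ m) (v : Perm (Fin m)) : rr a 0 v = a := by
  unfold rr
  have := card_pos (m := m) (b := 0) ha
  simp only [Nat.zero_le, and_true, true_and, Nat.sub_zero] at this ⊢
  exact this

theorem rr_mono (a : ℕ) {b b' : ℕ} (h : b ≤ b') (v : Perm (Fin m)) : rr a b' v ≤ rr a b v := by
  unfold rr
  refine Finset.card_le_card (fun p => ?_)
  simp only [mem_filter, mem_univ, true_and]
  rintro ⟨h1, h2⟩
  exact ⟨h1, h.trans h2⟩

theorem card_preimage_lt (v : Perm (Fin m)) (P : Fin m → Prop) [DecidablePred P] :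
    (univ.filter (fun p : Fin m => P (v p))).card = (univ.filter (fun p : Fin m => P p)).card := by
  refine Finset.card_bij (fun p _ => v p) ?_ ?_ ?_
  · intro p hp; simpa using hp
  · intro p _ q _ h; exact v.injective h
  · intro q hq
    exact ⟨v⁻¹ q, by simpa using hq, by simp⟩

theorem rr_lip (a b b' : ℕ) (v : Perm (Fin m)) :
    rr a b v ≤ rr a b' v + (b' - b) := by
  unfold rr
  have h2 : (univ.filter (fun p : Fin m => b ≤ (v p : ℕ) ∧ (v p : ℕ) < b')).card ≤ b' - b := by
    rw [card_preimage_lt v (fun q => b ≤ (q : ℕ) ∧ (q : ℕ) < b')]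
    have : (univ.filter (fun p : Fin m => b ≤ (p : ℕ) ∧ (p : ℕ) < b')).map Fin.valEmbedding ⊆
        Finset.Ico b b' := by
      intro x
      simp only [mem_map, mem_filter, mem_univ, true_and, Fin.valEmbedding_apply, mem_Ico]
      rintro ⟨p, hp, rfl⟩; exact hp
    have := Finset.card_le_card this
    rw [Finset.card_map, Nat.card_Ico] at this
    exact this
  refine le_trans ?_ (Nat.add_le_add_left h2 _)
  rw [← Finset.card_union_add_card_inter]
  refine le_trans (Finset.card_le_card ?_) (Nat.le_add_right _ _)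
  intro p
  simp only [mem_filter, mem_univ, true_and, mem_union]
  rintro ⟨h3, h4⟩
  by_cases h5 : b' ≤ (v p : ℕ)
  · exact Or.inl ⟨h3, h5⟩
  · exact Or.inr ⟨h4, by omega⟩

/-- `rr` at a gate does not change -/
theorem rr_gate {J : Set ℕ} {v : Perm (Fin m)} (hv : v ∈ gates m J) {b : ℕ}
    (hb : b = 0 ∨ b = m ∨ b ∈ J) (a : ℕ) (π : Perm (Fin m)) : rr a b (v * π) = rr a b π := by
  unfold rr
  congr 1
  ext p
  rw [mem_filter, mem_filter]
  simp only [mem_univ, true_and, Perm.mul_apply]
  rcases hb with rfl | rfl | hb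
  · simp
  · have h1 := (v (π p)).2
    have h2 := (π p).2
    constructor
    · rintro ⟨_, h⟩; omega
    · rintro ⟨_, h⟩; omega
  · have := mem_gates.1 hv b hb (π p)
    constructor
    · rintro ⟨h1, h2⟩; exact ⟨h1, by omega⟩
    · rintro ⟨h1, h2⟩; exact ⟨h1, by omega⟩

/-- **Greedy step.** -/
theorem greedy (J : Set ℕ) (a : ℕ) (π : Perm (Fin m)) :
    ∃ v ∈ gates m J, ∀ b ≤ m, ∃ l u, l ≤ b ∧ b ≤ u ∧ u ≤ m ∧ (l = 0 ∨ l ∈ J) ∧ (u = m ∨ u ∈ J) ∧
      (rr a l π ≤ rr a b (v * π) ∨ (u - b) + rr a u π ≤ rr a b (v * π)) := by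
  classical
  obtain ⟨v, hv, hmax⟩ := Finset.exists_max_image (gates m J)
    (fun v => ∑ p ∈ univ.filter (fun p : Fin m => (p : ℕ) < a), ((v (π p) : Fin m) : ℕ))
    ⟨1, one_mem_gates J⟩
  refine ⟨v, hv, fun b hb => ?_⟩
  -- the next gates below and above `b`
  obtain ⟨l, hl, hlmax⟩ := Finset.exists_max_image
    ((range (m + 1)).filter (fun c => (c = 0 ∨ c ∈ J) ∧ c ≤ b)) id
    ⟨0, by simp⟩
  obtain ⟨u, hu, humin⟩ := Finset.exists_min_image
    ((range (m + 1)).filter (fun c => (c = m ∨ c ∈ J) ∧ b ≤ c)) id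
    ⟨m, by simp [hb]⟩
  simp only [mem_filter, mem_range, id] at hl hu hlmax humin
  refine ⟨l, u, hl.2.2, hu.2.2, by omega, hl.2.1, hu.2.1, ?_⟩
  have hgate : ∀ c ∈ J, c ≤ l ∨ u ≤ c := by
    intro c hc
    rcases Nat.lt_or_ge m c with h | h
    · right; omega
    rcases le_total c b with h' | h'
    · exact Or.inl (hlmax c ⟨by omega, Or.inr hc, h'⟩)
    · exact Or.inr (humin c ⟨by omega, Or.inr hc, h'⟩)
  by_cases hex : ∃ p : Fin m, (p : ℕ) < a ∧ l ≤ (v (π p) : ℕ) ∧ ((v (π p) : Fin m) : ℕ) < b
  · right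
    obtain ⟨p, hpa, hpl, hpb⟩ := hex
    -- all positions of `[b,u)` are occupied
    have hocc : ∀ q : Fin m, b ≤ (v (π q) : ℕ) → ((v (π q) : Fin m) : ℕ) < u → (q : ℕ) < a := by
      intro q hq1 hq2
      by_contra hqa
      have hpq : p ≠ q := by rintro rfl; omega
      set v' := swap (v (π p)) (v (π q)) * v with hv'
      have hv'mem : v' ∈ gates m J := by
        rw [mem_gates]
        intro c hc x
        have h0 := mem_gates.1 hv c hc
        rw [hv', Perm.mul_apply]
        by_cases h1 : v x = v (π p)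
        · rw [h1, swap_apply_left]
          have hx : x = π p := v.injective h1
          have := h0 (π p)
          rw [hx]
          rcases hgate c hc with h | h <;> omega
        by_cases h2 : v x = v (π q)
        · rw [h2, swap_apply_right]
          have hx : x = π q := v.injective h2
          have := h0 (π q)
          rw [hx]
          rcases hgate c hc with h | h <;> omega
        rw [swap_apply_of_ne_of_ne h1 h2]
        exact h0 x
      have h3 := hmax v' hv'mem
      have h4 : ∑ x ∈ univ.filter (fun p : Fin m => (p : ℕ) < a), ((v (π x) : Fin m) : ℕ) <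
          ∑ x ∈ univ.filter (fun p : Fin m => (p : ℕ) < a), ((v' (π x) : Fin m) : ℕ) := by
        refine Finset.sum_lt_sum (fun x hx => ?_) ⟨p, by simpa using hpa, ?_⟩
        · rw [hv', Perm.mul_apply]
          by_cases h1 : x = p
          · rw [h1, swap_apply_left]; omega
          · have h2 : x ≠ q := by
              rintro rfl
              simp only [mem_filter, mem_univ, true_and] at hx
              exact hqa hx
            rw [swap_apply_of_ne_of_ne (fun h => h1 (π.injective (v.injective h)))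
              (fun h => h2 (π.injective (v.injective h)))]
        · rw [hv', Perm.mul_apply, swap_apply_left]; omega
      omega
    have h5 : rr a u (v * π) = rr a u π := by
      apply rr_gate hv
      rcases hu.2.1 with h | h
      · exact Or.inr (Or.inl h)
      · exact Or.inr (Or.inr h)
    rw [← h5]
    unfold rr
    have h6 : (univ.filter (fun x : Fin m => b ≤ ((v * π) x : ℕ) ∧
        (((v * π) x : Fin m) : ℕ) < u)).card = u - b := by
      rw [card_preimage_lt (v * π) (fun q => b ≤ (q : ℕ) ∧ (q : ℕ) < u)]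
      exact card_pos (by omega)
    rw [← h6, ← Finset.card_union_of_disjoint]
    · refine Finset.card_le_card (fun x => ?_)
      rw [mem_union, mem_filter, mem_filter, mem_filter]
      simp only [mem_univ, true_and, Perm.mul_apply]
      rintro (⟨h7, h8⟩ | ⟨h7, h8⟩)
      · exact ⟨hocc x h7 h8, h7⟩
      · exact ⟨h7, by omega⟩
    · rw [Finset.disjoint_left]
      intro x
      rw [mem_filter, mem_filter]
      rintro ⟨_, _, h7⟩ ⟨_, _, h8⟩
      omega
  · left
    push Not at hex
    have h5 : rr a l (v * π) = rr a l π := by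
      apply rr_gate hv
      rcases hl.2.1 with h | h
      · exact Or.inl h
      · exact Or.inr (Or.inr h)
    rw [← h5]
    unfold rr
    refine Finset.card_le_card (fun x => ?_)
    rw [mem_filter, mem_filter]
    simp only [mem_univ, true_and, Perm.mul_apply]
    rintro ⟨h6, h7⟩
    exact ⟨h6, hex x h6 h7⟩

end VPRed
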