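/-
P235-M, helper168.  RED-LINE, part 2: heights, bags, and the combinatorial theorem
(integer heights): a random set function which is exact on bags and expands distances.
-/
import Vale.Agent.P235.R2.H168.Word

namespace VPRed

open Equiv Finset VPBruhat

/-- Integer model: bags `B 0, ..., B N`, heights `H`, and a semimetric `ρ` dominated by the height
difference inside every bag. -/
structure LineModel {V : Type} (N : ℕ) (B : ℕ → Set V) (H : V → ℕ) (M : ℕ) (ρ : V → V → ℝ) :
    Prop where
  cover : ∀ x, ∃ i, i ≤ N ∧ x ∈ B i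
  conv : ∀ i j k, i ≤ j → j ≤ k → k ≤ N → ∀ x, x ∈ B i → x ∈ B k → x ∈ B j
  lo : ∀ x, M ≤ H x
  hi : ∀ x, H x ≤ 2 * M
  tri : ∀ x y z, ρ x z ≤ ρ x y + ρ y z
  symm : ∀ x y, ρ x y = ρ y x
  le : ∀ x y, ρ x y ≤ 2 * M
  bag : ∀ i ≤ N, ∀ x ∈ B i, ∀ y ∈ B i, ρ x y ≤ |(H x : ℝ) - H y|

/-- the levels which are preserved in step `t` -/
def lev {V : Type} (B : ℕ → Set V) (H : V → ℕ) (t : ℕ) : Set ℕ := {c | ∃ z, z ∈ B t ∧ z ∈ B (t + 1) ∧ c = H z}

namespace LineModel

variable {V : Type} {N : ℕ} {B : ℕ → Set V} {H : V → ℕ} {M : ℕ} {ρ : V → V → ℝ}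

/-- **Static bound**: some configuration has flux at least the distance. -/
theorem static (h : LineModel N B H M ρ) {i : ℕ} {x : V} (hx : x ∈ B i) (k : ℕ) (hik : i ≤ k)
    (hk : k ≤ N) : ∃ v : ℕ → Perm (Fin (3 * M)), (∀ t, v t ∈ gates (3 * M) (lev B H t)) ∧
      ∀ z ∈ B k, ρ x z ≤ 2 * (rr (H x) (H z) (wprod v i k) : ℝ) + H z - H x := by
  have hHx := h.hi x
  have hHx' := h.lo x
  induction k, hik using Nat.le_induction with
  | base =>
    refine ⟨fun _ => 1, fun t => one_mem_gates _, fun z hz => ?_⟩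
    rw [wprod_self, rr_one (by omega)]
    refine (h.bag i hk x hx z hz).trans ?_
    rcases le_total (H x) (H z) with h1 | h1
    · have h2 : (H x : ℝ) ≤ H z := by exact_mod_cast h1
      rw [abs_of_nonpos (by linarith), Nat.sub_eq_zero_of_le h1]
      push_cast; linarith
    · have h2 : (H z : ℝ) ≤ H x := by exact_mod_cast h1
      rw [abs_of_nonneg (by linarith), Nat.cast_sub h1]
      linarith
  | succ k hik ih =>
    obtain ⟨v, hv, hb⟩ := ih (by omega)
    obtain ⟨g, hg, hgr⟩ := greedy (m := 3 * M) (lev B H k) (H x) (wprod v i k)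
    refine ⟨Function.update v k g, ?_, ?_⟩
    · intro t
      by_cases ht : t = k
      · subst ht; simpa using hg
      · rw [Function.update_of_ne ht]; exact hv t
    · intro z hz
      have e : wprod (Function.update v k g) i (k + 1) = g * wprod v i k := by
        rw [wprod_succ _ hik, Function.update_self]
        congr 1
        exact wprod_congr (fun t _ h2 => Function.update_of_ne (by omega) _ _) hik
      rw [e]
      have hHz := h.hi z
      have hHz' := h.lo z
      obtain ⟨l, u, h1, h2, h3, h4, h5, h6⟩ := hgr (H z) (by omega)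
      have h1' : (l : ℝ) ≤ H z := by exact_mod_cast h1
      have h2' : (H z : ℝ) ≤ u := by exact_mod_cast h2
      have hM1 : (M : ℝ) ≤ H x := by exact_mod_cast hHx'
      have hM2 : (M : ℝ) ≤ H z := by exact_mod_cast hHz'
      have hM3 : (H x : ℝ) ≤ 2 * M := by exact_mod_cast hHx
      have hM4 : (H z : ℝ) ≤ 2 * M := by exact_mod_cast hHz
      rcases h6 with h6 | h6
      · have h6' : (rr (H x) l (wprod v i k) : ℝ) ≤ rr (H x) (H z) (g * wprod v i k) := by
          exact_mod_cast h6
        rcases h4 with rfl | ⟨z1, hz1, hz1', rfl⟩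
        · rw [rr_zero (by omega)] at h6'
          have := h.le x z
          linarith
        · have h7 := hb z1 hz1
          have h8 := h.bag (k + 1) hk z1 hz1' z hz
          have h9 := h.tri x z1 z
          rw [abs_of_nonpos (by linarith)] at h8
          linarith
      · have h6' : ((u : ℝ) - H z) + (rr (H x) u (wprod v i k) : ℝ) ≤
            rr (H x) (H z) (g * wprod v i k) := by
          rw [← Nat.cast_sub h2]
          exact_mod_cast h6
        rcases h5 with rfl | ⟨z1, hz1, hz1', rfl⟩
        · have h7 : (0 : ℝ) ≤ (rr (H x) (3 * M) (wprod v i k) : ℝ) := Nat.cast_nonneg _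
          have := h.le x z
          push_cast at h6'
          linarith
        · have h7 := hb z1 hz1
          have h8 := h.bag (k + 1) hk z1 hz1' z hz
          have h9 := h.tri x z1 z
          rw [abs_of_nonneg (by linarith)] at h8
          linarith

/-- wires below the height `a` at time `i` -/
def low {m : ℕ} (c : ℕ → Perm (Fin m)) (i a : ℕ) (w : Fin m) : Bool :=
  decide (((wprod c 0 i w : Fin m) : ℕ) < a)

theorem low_congr (h : LineModel N B H M ρ) {c : ℕ → Perm (Fin (3 * M))}
    (hc : ∀ t, t < N → c t ∈ gates (3 * M) (lev B H t)) {x : V} {i k : ℕ} (hik : i ≤ k)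
    (hk : k ≤ N) (hi : x ∈ B i) (hx : x ∈ B k) (w : Fin (3 * M)) :
    low c k (H x) w = low c i (H x) w := by
  induction k, hik using Nat.le_induction with
  | base => rfl
  | succ k hik ih =>
    have h1 : x ∈ B k := h.conv i k (k + 1) hik (by omega) hk x hi hx
    rw [← ih (by omega) h1]
    unfold low
    rw [wprod_succ c (Nat.zero_le k), Perm.mul_apply]
    have := mem_gates.1 (hc k (by omega)) (H x) ⟨x, h1, hx, rfl⟩ (wprod c 0 k w)
    exact decide_eq_decide.2 this

/-- the number of wires in the symmetric difference -/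
theorem card_low {m : ℕ} (c : ℕ → Perm (Fin m)) {i k a b : ℕ} (hik : i ≤ k) (ha : a ≤ m)
    (hb : b ≤ m) :
    ((∑ w : Fin m, if low c i a w = low c k b w then (0 : ℝ) else 1)) =
      2 * (rr a b (wprod c i k) : ℝ) + b - a := by
  classical
  set P := wprod c 0 i with hP
  set π := wprod c i k with hπ
  have e : wprod c 0 k = π * P := wprod_mul c (Nat.zero_le i) hik
  -- reindex by the position at time `i`
  have e1 : (∑ w : Fin m, if low c i a w = low c k b w then (0 : ℝ) else 1) =
      ∑ p : Fin m, if ((p : ℕ) < a ↔ ((π p : Fin m) : ℕ) < b) then (0 : ℝ) else 1 := by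
    refine Fintype.sum_equiv P _ _ (fun w => ?_)
    unfold low
    rw [e, Perm.mul_apply, ← hP]
    by_cases h1 : ((P w : Fin m) : ℕ) < a <;> by_cases h2 : ((π (P w) : Fin m) : ℕ) < b <;>
      simp [h1, h2]
  rw [e1]
  have e2 : ∀ p : Fin m, (if ((p : ℕ) < a ↔ ((π p : Fin m) : ℕ) < b) then (0 : ℝ) else 1) =
      2 * (if (p : ℕ) < a ∧ b ≤ (π p : ℕ) then (1 : ℝ) else 0) +
        (if ((π p : Fin m) : ℕ) < b then (1 : ℝ) else 0) - (if (p : ℕ) < a then (1 : ℝ) else 0) := by
    intro p
    by_cases h1 : (p : ℕ) < a <;> by_cases h2 : ((π p : Fin m) : ℕ) < b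
    · have h3 : ¬ b ≤ (π p : ℕ) := by omega
      simp [h1, h2, h3]
    · have h3 : b ≤ (π p : ℕ) := by omega
      simp [h1, h2, h3]; norm_num
    · have h3 : ¬ b ≤ (π p : ℕ) := by omega
      simp [h1, h2]
    · simp [h1, h2]
  rw [Finset.sum_congr rfl (fun p _ => e2 p), Finset.sum_sub_distrib, Finset.sum_add_distrib,
    ← Finset.mul_sum]
  have c1 : (∑ p : Fin m, if (p : ℕ) < a ∧ b ≤ (π p : ℕ) then (1 : ℝ) else 0) = rr a b π := by
    unfold rr
    rw [Finset.card_filter]; push_cast; rfl
  have c2 : (∑ p : Fin m, if ((π p : Fin m) : ℕ) < b then (1 : ℝ) else 0) = b := by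
    have h1 := card_preimage_lt π (fun q => (q : ℕ) < b)
    have h2 := card_pos (m := m) (b := 0) hb
    simp only [Nat.zero_le, true_and, Nat.sub_zero] at h2
    rw [h2] at h1
    have h3 : ((univ.filter (fun p : Fin m => ((π p : Fin m) : ℕ) < b)).card : ℝ) = b := by
      exact_mod_cast h1
    rw [Finset.card_filter] at h3
    push_cast at h3
    exact h3
  have c3 : (∑ p : Fin m, if (p : ℕ) < a then (1 : ℝ) else 0) = a := by
    have h2 := card_pos (m := m) (b := 0) ha
    simp only [Nat.zero_le, true_and, Nat.sub_zero] at h2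
    have h3 : ((univ.filter (fun p : Fin m => (p : ℕ) < a)).card : ℝ) = a := by
      exact_mod_cast h2
    rw [Finset.card_filter] at h3
    push_cast at h3
    exact h3
  rw [c1, c2, c3]

/-- **The combinatorial theorem.** -/
theorem main (h : LineModel N B H M ρ) {K : ℝ} (hK : 1 ≤ K) (hW : WordLaw K N) :
    ∃ (ι : Type) (_ : Fintype ι) (w : ι → ℝ) (c : ι → V → Bool), (∀ i, 0 ≤ w i) ∧
      (∀ i ≤ N, ∀ x ∈ B i, ∀ y ∈ B i,
        ∑ j, w j * (if c j x = c j y then (0 : ℝ) else 1) = |(H x : ℝ) - H y|) ∧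
      ∀ x y, ρ x y ≤ (4 * K + 3) * ∑ j, w j * (if c j x = c j y then (0 : ℝ) else 1) := by
  classical
  obtain ⟨ι, hι, w, c, hw0, hw1, hcm, hserve⟩ := hW (3 * M) (lev B H)
  choose b hbN hbB using h.cover
  refine ⟨ι × Fin (3 * M), inferInstance, fun j => w j.1,
    fun j x => low (c j.1) (b x) (H x) j.2, fun j => hw0 j.1, ?_⟩
  have hH : ∀ x, H x ≤ 3 * M := fun x => by have := h.hi x; omega
  -- the value of the sum, through any bags
  have key : ∀ x y i k, i ≤ k → k ≤ N → x ∈ B i → y ∈ B k →
      ∑ j : ι × Fin (3 * M), w j.1 * (if low (c j.1) (b x) (H x) j.2 =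
        low (c j.1) (b y) (H y) j.2 then (0 : ℝ) else 1) =
      ∑ j, w j * (2 * (rr (H x) (H y) (wprod (c j) i k) : ℝ) + H y - H x) := by
    intro x y i k hik hk hx hy
    rw [Fintype.sum_prod_type]
    refine Finset.sum_congr rfl (fun j _ => ?_)
    dsimp only
    rw [← Finset.mul_sum, ← card_low (c j) hik (hH x) (hH y)]
    congr 1
    refine Finset.sum_congr rfl (fun s _ => ?_)
    have hx' : low (c j) (b x) (H x) s = low (c j) i (H x) s := by
      rcases le_total (b x) i with h1 | h1
      · exact (h.low_congr (fun t _ => hcm j t) h1 (by omega) (hbB x) hx s).symm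
      · exact h.low_congr (fun t _ => hcm j t) h1 (hbN x) hx (hbB x) s
    have hy' : low (c j) (b y) (H y) s = low (c j) k (H y) s := by
      rcases le_total (b y) k with h1 | h1
      · exact (h.low_congr (fun t _ => hcm j t) h1 (by omega) (hbB y) hy s).symm
      · exact h.low_congr (fun t _ => hcm j t) h1 (hbN y) hy (hbB y) s
    rw [hx', hy']
  have hsymm : ∀ x y, ∑ j : ι × Fin (3 * M), w j.1 * (if low (c j.1) (b x) (H x) j.2 =
        low (c j.1) (b y) (H y) j.2 then (0 : ℝ) else 1) =
      ∑ j : ι × Fin (3 * M), w j.1 * (if low (c j.1) (b y) (H y) j.2 =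
        low (c j.1) (b x) (H x) j.2 then (0 : ℝ) else 1) := by
    intro x y
    refine Finset.sum_congr rfl (fun j _ => ?_)
    simp only [eq_comm]
  constructor
  · have main1 : ∀ i ≤ N, ∀ x ∈ B i, ∀ y ∈ B i, H x ≤ H y →
        ∑ j : ι × Fin (3 * M), w j.1 * (if low (c j.1) (b x) (H x) j.2 =
          low (c j.1) (b y) (H y) j.2 then (0 : ℝ) else 1) = |(H x : ℝ) - H y| := by
      intro i hi x hx y hy hxy
      rw [key x y i i le_rfl hi hx hy]
      have h2 : (H x : ℝ) ≤ H y := by exact_mod_cast hxy
      rw [abs_of_nonpos (by linarith)]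
      have : ∀ j, w j * (2 * (rr (H x) (H y) (wprod (c j) i i) : ℝ) + H y - H x) =
          w j * ((H y : ℝ) - H x) := by
        intro j
        rw [wprod_self, rr_one (hH x), Nat.sub_eq_zero_of_le hxy]
        push_cast; ring
      rw [Finset.sum_congr rfl (fun j _ => this j), ← Finset.sum_mul, hw1]
      ring
    intro i hi x hx y hy
    rcases le_total (H x) (H y) with h1 | h1
    · exact main1 i hi x hx y hy h1
    · rw [hsymm, abs_sub_comm]
      exact main1 i hi y hy x hx h1
  · have main2 : ∀ x y, b x ≤ b y → ρ x y ≤ (4 * K + 3) *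
        ∑ j : ι × Fin (3 * M), w j.1 * (if low (c j.1) (b x) (H x) j.2 =
          low (c j.1) (b y) (H y) j.2 then (0 : ℝ) else 1) := by
      intro x y hxy
      rw [key x y (b x) (b y) hxy (hbN y) (hbB x) (hbB y)]
      obtain ⟨v, hv, hvz⟩ := h.static (hbB x) (b y) hxy (hbN y)
      have h1 := hvz y (hbB y)
      have h2 := hserve (b x) (b y) hxy (hbN y) (H x) v hv
      set D : ℝ := |(H x : ℝ) - H y| with hD
      have hDn : 0 ≤ D := abs_nonneg _
      -- comparison of `rr a b` and `flux a`
      have hr1 : ∀ π : Perm (Fin (3 * M)), (rr (H x) (H y) π : ℝ) ≤ flux (H x) π + D := by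
        intro π
        have h3 := rr_lip (H x) (H y) (H x) π
        have h4 : ((H x - H y : ℕ) : ℝ) ≤ D := by
          rcases le_total (H y) (H x) with h5 | h5
          · rw [Nat.cast_sub h5, hD]; exact le_abs_self _
          · rw [Nat.sub_eq_zero_of_le h5]; simpa using hDn
        have h5 : (rr (H x) (H y) π : ℝ) ≤ rr (H x) (H x) π + ((H x - H y : ℕ) : ℝ) := by
          exact_mod_cast h3
        rw [rr_self] at h5
        linarith
      have hr2 : ∀ π : Perm (Fin (3 * M)), (flux (H x) π : ℝ) ≤ rr (H x) (H y) π + D := by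
        intro π
        have h3 := rr_lip (H x) (H x) (H y) π
        have h4 : ((H y - H x : ℕ) : ℝ) ≤ D := by
          rcases le_total (H x) (H y) with h5 | h5
          · rw [Nat.cast_sub h5, hD, abs_sub_comm]; exact le_abs_self _
          · rw [Nat.sub_eq_zero_of_le h5]; simpa using hDn
        have h5 : (rr (H x) (H x) π : ℝ) ≤ rr (H x) (H y) π + ((H y - H x : ℕ) : ℝ) := by
          exact_mod_cast h3
        rw [rr_self] at h5
        linarith
      have hr3 : ∀ π : Perm (Fin (3 * M)),
          D ≤ 2 * (rr (H x) (H y) π : ℝ) + H y - H x := by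
        intro π
        rcases le_total (H x) (H y) with h5 | h5
        · have h6 : (H x : ℝ) ≤ H y := by exact_mod_cast h5
          rw [hD, abs_of_nonpos (by linarith)]
          have : (0 : ℝ) ≤ rr (H x) (H y) π := Nat.cast_nonneg _
          linarith
        · have h6 : (H y : ℝ) ≤ H x := by exact_mod_cast h5
          rw [hD, abs_of_nonneg (by linarith)]
          have h7 := rr_lip (H x) 0 (H y) π
          rw [rr_zero (hH x)] at h7
          have h8 : (H x : ℝ) ≤ rr (H x) (H y) π + H y := by exact_mod_cast h7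
          linarith
      set E : ℝ := ∑ j, w j * (2 * (rr (H x) (H y) (wprod (c j) (b x) (b y)) : ℝ) + H y - H x)
        with hE
      have hE1 : D ≤ E := by
        have : ∑ j, w j * D ≤ E := Finset.sum_le_sum (fun j _ =>
          mul_le_mul_of_nonneg_left (hr3 _) (hw0 j))
        rwa [← Finset.sum_mul, hw1, one_mul] at this
      have hHD : -D ≤ (H y : ℝ) - H x := by
        rw [hD, abs_sub_comm]; exact neg_abs_le _
      have hHD' : (H y : ℝ) - H x ≤ D := by
        rw [hD, abs_sub_comm]; exact le_abs_self _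
      have hE2 : 2 * ∑ j, w j * (flux (H x) (wprod (c j) (b x) (b y)) : ℝ) - 3 * D ≤ E := by
        have h3 : ∑ j, w j * (2 * (flux (H x) (wprod (c j) (b x) (b y)) : ℝ) - 3 * D) ≤ E :=
          Finset.sum_le_sum (fun j _ => mul_le_mul_of_nonneg_left (by
            have := hr2 (wprod (c j) (b x) (b y)); linarith) (hw0 j))
        have h4 : ∑ j, w j * (2 * (flux (H x) (wprod (c j) (b x) (b y)) : ℝ) - 3 * D) =
            2 * ∑ j, w j * (flux (H x) (wprod (c j) (b x) (b y)) : ℝ) - 3 * D := by
          have : ∀ j, w j * (2 * (flux (H x) (wprod (c j) (b x) (b y)) : ℝ) - 3 * D) =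
              2 * (w j * (flux (H x) (wprod (c j) (b x) (b y)) : ℝ)) - w j * (3 * D) := by
            intro j; ring
          rw [Finset.sum_congr rfl (fun j _ => this j), Finset.sum_sub_distrib,
            ← Finset.mul_sum, ← Finset.sum_mul, hw1, one_mul]
        linarith
      have h3 := hr1 (wprod v (b x) (b y))
      set F : ℝ := ∑ j, w j * (flux (H x) (wprod (c j) (b x) (b y)) : ℝ) with hF
      have h4 : ρ x y ≤ 2 * (K * F) + 3 * D := by linarith
      have h5 : K * (2 * F) ≤ K * (E + 3 * D) := mul_le_mul_of_nonneg_left (by linarith)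
        (by linarith)
      have h6 : K * D ≤ K * E := mul_le_mul_of_nonneg_left hE1 (by linarith)
      nlinarith
    intro x y
    rcases le_total (b x) (b y) with h1 | h1
    · exact main2 x y h1
    · rw [h.symm, hsymm]
      exact main2 y x h1

end LineModel

end VPRed
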