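/-
P235-M, helper168.  RED-LINE, part 3: the bag theorem.  A finite metric generated by the edges of a
graph with a path decomposition into bags each of which is isometric to a subset of the real line.
-/
import Vale.Agent.P235.R2.H168.Static

namespace VPRed

open Equiv Finset VPBruhat MeasureTheory

/-- `B 0, ..., B N` cover `V`, every point lies in a contiguous range of the bags, and every bag is
isometric (for `d`) to a subset of the real line. -/
structure LineBags {V : Type} (d : V → V → ℝ) (N : ℕ) (B : ℕ → Set V) : Prop where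
  cover : ∀ v, ∃ i, i ≤ N ∧ v ∈ B i
  conv : ∀ i j k, i ≤ j → j ≤ k → k ≤ N → ∀ v, v ∈ B i → v ∈ B k → v ∈ B j
  line : ∀ i, i ≤ N → ∃ h : V → ℝ, ∀ x ∈ B i, ∀ y ∈ B i, d x y = |h x - h y|

/-- two isometries of a set into the line differ by an isometry of the line -/
theorem rigid {V : Type} (S : Set V) (g h : V → ℝ)
    (H : ∀ x ∈ S, ∀ y ∈ S, |g x - g y| = |h x - h y|) :
    ∃ s c : ℝ, |s| = 1 ∧ ∀ x ∈ S, h x = s * g x + c := by
  by_cases hc : ∃ x ∈ S, ∃ y ∈ S, g x ≠ g y
  · obtain ⟨x, hx, y, hy, hxy⟩ := hc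
    have hd : g x - g y ≠ 0 := sub_ne_zero.2 hxy
    obtain ⟨s, hs, hs'⟩ : ∃ s : ℝ, (s = 1 ∨ s = -1) ∧ h x - h y = s * (g x - g y) := by
      rcases abs_eq_abs.1 (H x hx y hy) with e | e
      · exact ⟨1, Or.inl rfl, by linarith⟩
      · exact ⟨-1, Or.inr rfl, by linarith⟩
    have hs2 : s * s = 1 := by rcases hs with rfl | rfl <;> norm_num
    refine ⟨s, h x - s * g x, by rcases hs with rfl | rfl <;> norm_num, fun z hz => ?_⟩
    have e1 := H z hz x hx
    have e2 := H z hz y hy
    rw [← sq_eq_sq_iff_abs_eq_abs] at e1 e2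
    -- `u = h z - h x`, `v = s (g z - g x)`: `u² = v²` and `(u + k)² = (v + k)²`, `k ≠ 0`
    have e3 : (h z - h x - s * (g z - g x)) * (g x - g y) = 0 := by
      have e4 : s * ((h z - h x - s * (g z - g x)) * (g x - g y)) = 0 := by
        have : h z - h y = (h z - h x) + s * (g x - g y) := by linarith
        rw [this] at e2
        have e5 : g z - g y = (g z - g x) + (g x - g y) := by ring
        rw [e5] at e2
        nlinarith
      have hs0 : s ≠ 0 := by rcases hs with rfl | rfl <;> norm_num
      exact (mul_eq_zero.1 e4).resolve_left hs0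
    have := (mul_eq_zero.1 e3).resolve_right hd
    linarith
  · push Not at hc
    by_cases hne : S.Nonempty
    · obtain ⟨x, hx⟩ := hne
      refine ⟨1, h x - g x, by norm_num, fun z hz => ?_⟩
      have e1 := H z hz x hx
      have e2 := hc z hz x hx
      rw [e2, sub_self, abs_zero] at e1
      have := abs_eq_zero.1 e1.symm
      linarith
    · refine ⟨1, 0, by norm_num, fun z hz => absurd ⟨z, hz⟩ hne⟩

/-- **A common height.** -/
theorem LineBags.height {V : Type} {d : V → V → ℝ} {N : ℕ} {B : ℕ → Set V}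
    (hB : LineBags d N B) : ∃ h : V → ℝ, ∀ i, i ≤ N → ∀ x ∈ B i, ∀ y ∈ B i,
      d x y = |h x - h y| := by
  classical
  have key : ∀ n, n ≤ N → ∃ h : V → ℝ, ∀ i, i ≤ n → ∀ x ∈ B i, ∀ y ∈ B i,
      d x y = |h x - h y| := by
    intro n
    induction n with
    | zero =>
      intro h0
      obtain ⟨h, hh⟩ := hB.line 0 h0
      exact ⟨h, fun i hi => by obtain rfl : i = 0 := by omega
                               exact hh⟩
    | succ n ih =>
      intro hn
      obtain ⟨h, hh⟩ := ih (by omega)
      obtain ⟨g, hg⟩ := hB.line (n + 1) hn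
      obtain ⟨s, c, hs, hsc⟩ := rigid (B n ∩ B (n + 1)) g h (fun x hx y hy => by
        rw [← hg x hx.2 y hy.2, ← hh n le_rfl x hx.1 y hy.1])
      refine ⟨fun x => if x ∈ B (n + 1) then s * g x + c else h x, ?_⟩
      intro i hi x hx y hy
      rcases Nat.lt_or_ge n i with h1 | h1
      · obtain rfl : i = n + 1 := by omega
        simp only [hx, hy, if_true]
        rw [hg x hx y hy]
        have : s * g x + c - (s * g y + c) = s * (g x - g y) := by ring
        rw [this, abs_mul, hs, one_mul]
      · have e : ∀ z ∈ B i, (if z ∈ B (n + 1) then s * g z + c else h z) = h z := by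
          intro z hz
          by_cases hz' : z ∈ B (n + 1)
          · rw [if_pos hz']
            exact (hsc z ⟨hB.conv i n (n + 1) h1 (by omega) hn z hz hz', hz'⟩).symm
          · rw [if_neg hz']
        dsimp only
        rw [e x hx, e y hy]
        exact hh i h1 x hx y hy
  exact key N le_rfl

/-- a weighted sum of cuts is a metric of `L₁` -/
theorem embeds_of_cuts {V : Type} {d : V → V → ℝ} {C : ℝ} {ι : Type} [Fintype ι] (w : ι → ℝ)
    (c : ι → V → Bool) (hw : ∀ i, 0 ≤ w i)
    (h1 : ∀ x y, d x y ≤ ∑ i, w i * (if c i x = c i y then 0 else 1))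
    (h2 : ∀ x y, ∑ i, w i * (if c i x = c i y then 0 else 1) ≤ C * d x y) :
    Vale.Agent.P235.EmbedsL1 d C := by
  let f : V → ι → ℝ := fun x i => w i * (if c i x then 1 else 0)
  let _ : MeasurableSpace ι := ⊤
  have hmem : ∀ x, MemLp (f x) 1 (Measure.count : Measure ι) := fun x => by
    apply MemLp.of_discrete
  refine ⟨ι, ⊤, Measure.count, fun x => (hmem x).toLp (f x), ?_⟩
  have key : ∀ x y, ‖(hmem x).toLp (f x) - (hmem y).toLp (f y)‖ =
      ∑ i, w i * (if c i x = c i y then 0 else 1) := by
    intro x y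
    rw [← MemLp.toLp_sub, Lp.norm_toLp, eLpNorm_one_eq_lintegral_enorm, lintegral_count,
      tsum_fintype, ENNReal.toReal_sum (fun i _ => by simp)]
    apply Finset.sum_congr rfl
    intro i _
    rw [toReal_enorm]
    show ‖w i * (if c i x then 1 else 0) - w i * (if c i y then 1 else 0)‖ = _
    rw [← mul_sub, norm_mul, Real.norm_of_nonneg (hw i)]
    cases c i x <;> cases c i y <;> simp
  intro x y
  rw [key]
  exact ⟨h1 x y, h2 x y⟩

/-- `d` is a metric generated by distances inside bags: every function which is 1-Lipschitz on the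
bags is 1-Lipschitz.  (For a path metric: every edge lies in a bag.) -/
structure BagGen {V : Type} (d : V → V → ℝ) (N : ℕ) (B : ℕ → Set V) : Prop where
  self : ∀ x, d x x = 0
  pos : ∀ x y, x ≠ y → 0 < d x y
  symm : ∀ x y, d x y = d y x
  tri : ∀ x y z, d x z ≤ d x y + d y z
  gen : ∀ F : V → V → ℝ, (∀ x, F x x = 0) → (∀ x y z, F x z ≤ F x y + F y z) →
    (∀ i, i ≤ N → ∀ x ∈ B i, ∀ y ∈ B i, F x y ≤ d x y) → ∀ x y, F x y ≤ d x y

/-- **The bag theorem**, for a metric generated by line bags. -/
theorem bag_embeds {V : Type} [Finite V] {d : V → V → ℝ} {N : ℕ} {B : ℕ → Set V}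
    (hB : LineBags d N B) (hd : BagGen d N B) {K : ℝ} (hK : 1 ≤ K) (hW : WordLaw K N) :
    Vale.Agent.P235.EmbedsL1 d (8 * K) := by
  classical
  have := Fintype.ofFinite V
  obtain ⟨h, hh⟩ := hB.height
  rcases isEmpty_or_nonempty V with hV | hV
  · exact embeds_of_cuts (ι := Empty) (fun _ => 0) (fun _ _ => true) (fun i => i.elim)
      (fun x => (hV.false x).elim) (fun x => (hV.false x).elim)
  -- the smallest distance
  obtain ⟨δ, hδ, hδd⟩ : ∃ δ : ℝ, 0 < δ ∧ ∀ x y, x ≠ y → δ ≤ d x y := by
    rcases (Finset.univ.filter (fun p : V × V => p.1 ≠ p.2)).eq_empty_or_nonempty with he | hne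
    · refine ⟨1, one_pos, fun x y hxy => ?_⟩
      have : (x, y) ∈ Finset.univ.filter (fun p : V × V => p.1 ≠ p.2) := by simpa using hxy
      rw [he] at this
      exact absurd this (Finset.notMem_empty _)
    · obtain ⟨p, hp, hmin⟩ := Finset.exists_min_image _ (fun p : V × V => d p.1 p.2) hne
      refine ⟨d p.1 p.2, hd.pos _ _ (by simpa using hp), fun x y hxy => ?_⟩
      exact hmin (x, y) (by simpa using hxy)
  -- bounds for heights and distances
  obtain ⟨xm, -, hxm⟩ := Finset.exists_min_image Finset.univ h ⟨hV.some, mem_univ _⟩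
  obtain ⟨xM, -, hxM⟩ := Finset.exists_max_image Finset.univ h ⟨hV.some, mem_univ _⟩
  obtain ⟨pM, -, hpM⟩ := Finset.exists_max_image Finset.univ (fun p : V × V => d p.1 p.2)
    ⟨(hV.some, hV.some), mem_univ _⟩
  set q : ℝ := 15 / δ with hq
  have hq0 : 0 < q := by positivity
  obtain ⟨M, hM⟩ := exists_nat_ge (q * (h xM - h xm) + q * d pM.1 pM.2)
  have hdn : ∀ x y, 0 ≤ d x y := by
    intro x y
    by_cases hxy : x = y
    · rw [hxy, hd.self]
    · exact (hd.pos x y hxy).le
  have hM1 : ∀ x, q * (h x - h xm) ≤ M := by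
    intro x
    have h1 : q * (h x - h xm) ≤ q * (h xM - h xm) := by
      apply mul_le_mul_of_nonneg_left _ hq0.le
      have := hxM x (mem_univ _)
      linarith
    have h2 : 0 ≤ q * d pM.1 pM.2 := mul_nonneg hq0.le (hdn _ _)
    linarith
  have hM2 : ∀ x y, q * d x y ≤ M := by
    intro x y
    have h1 : q * d x y ≤ q * d pM.1 pM.2 :=
      mul_le_mul_of_nonneg_left (hpM (x, y) (mem_univ _)) hq0.le
    have h2 : 0 ≤ q * (h xM - h xm) := by
      apply mul_nonneg hq0.le
      have := hxM xm (mem_univ _)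
      linarith
    linarith
  have hpos : ∀ x, 0 ≤ q * (h x - h xm) := by
    intro x
    apply mul_nonneg hq0.le
    have := hxm x (mem_univ _)
    linarith
  set H : V → ℕ := fun x => M + ⌊q * (h x - h xm)⌋₊ with hH
  -- rounding
  have hround : ∀ x y, x ≠ y → ∀ i, i ≤ N → x ∈ B i → y ∈ B i →
      (14 / 15) * (q * d x y) ≤ |(H x : ℝ) - H y| ∧
      |(H x : ℝ) - H y| ≤ (16 / 15) * (q * d x y) := by
    intro x y hxy i hi hx hy
    have h1 : (15 : ℝ) ≤ q * d x y := by
      have := mul_le_mul_of_nonneg_left (hδd x y hxy) hq0.le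
      rw [hq] at this ⊢
      rw [div_mul_cancel₀ _ hδ.ne'] at this
      exact this
    have h2 : q * d x y = |q * (h x - h xm) - q * (h y - h xm)| := by
      have : q * (h x - h xm) - q * (h y - h xm) = q * (h x - h y) := by ring
      rw [this, abs_mul, abs_of_pos hq0, hh i hi x hx y hy]
    have h3 : (H x : ℝ) - H y =
        (⌊q * (h x - h xm)⌋₊ : ℝ) - (⌊q * (h y - h xm)⌋₊ : ℝ) := by
      simp only [hH]; push_cast; ring
    have f1 := Nat.floor_le (hpos x)
    have f2 := Nat.lt_floor_add_one (q * (h x - h xm))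
    have f3 := Nat.floor_le (hpos y)
    have f4 := Nat.lt_floor_add_one (q * (h y - h xm))
    have h4 : |((⌊q * (h x - h xm)⌋₊ : ℝ) - (⌊q * (h y - h xm)⌋₊ : ℝ)) -
        (q * (h x - h xm) - q * (h y - h xm))| ≤ 1 := by
      rw [abs_le]; constructor <;> linarith
    rw [h3]
    have h5 := abs_sub_abs_le_abs_sub ((⌊q * (h x - h xm)⌋₊ : ℝ) - (⌊q * (h y - h xm)⌋₊ : ℝ))
      (q * (h x - h xm) - q * (h y - h xm))
    have h6 := abs_sub_abs_le_abs_sub (q * (h x - h xm) - q * (h y - h xm))
      ((⌊q * (h x - h xm)⌋₊ : ℝ) - (⌊q * (h y - h xm)⌋₊ : ℝ))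
    rw [abs_sub_comm (q * (h x - h xm) - q * (h y - h xm))
      ((⌊q * (h x - h xm)⌋₊ : ℝ) - (⌊q * (h y - h xm)⌋₊ : ℝ))] at h6
    rw [← h2] at h5 h6
    constructor <;> linarith
  have hmodel : LineModel N B H M (fun x y => (14 / 15) * (q * d x y)) := by
    refine ⟨hB.cover, fun i j k h1 h2 h3 x hx hx' => hB.conv i j k h1 h2 h3 x hx hx',
      fun x => Nat.le_add_right _ _, ?_, ?_, ?_, ?_, ?_⟩
    · intro x
      have : ⌊q * (h x - h xm)⌋₊ ≤ M := by
        have := Nat.floor_le_floor (hM1 x)
        rwa [Nat.floor_natCast] at this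
      simp only [hH]; omega
    · intro x y z
      have := mul_le_mul_of_nonneg_left (hd.tri x y z) hq0.le
      linarith
    · intro x y
      simp only [hd.symm x y]
    · intro x y
      have := hM2 x y
      have := mul_nonneg hq0.le (hdn x y)
      have : (0 : ℝ) ≤ M := Nat.cast_nonneg _
      show (14 / 15) * (q * d x y) ≤ 2 * M
      linarith
    · intro i hi x hx y hy
      by_cases hxy : x = y
      · subst hxy
        show (14 / 15) * (q * d x x) ≤ _
        rw [hd.self]; simp
      · exact (hround x y hxy i hi hx hy).1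
  obtain ⟨ι, hι, w, c, hw, hbag, hlow⟩ := hmodel.main hK hW
  set E : V → V → ℝ := fun x y => ∑ j, w j * (if c j x = c j y then (0 : ℝ) else 1) with hE
  have hEself : ∀ x, E x x = 0 := by intro x; simp [hE]
  have hEtri : ∀ x y z, E x z ≤ E x y + E y z := by
    intro x y z
    simp only [hE]
    rw [← Finset.sum_add_distrib]
    refine Finset.sum_le_sum (fun j _ => ?_)
    rw [← mul_add]
    refine mul_le_mul_of_nonneg_left ?_ (hw j)
    cases c j x <;> cases c j y <;> cases c j z <;> norm_num
  have hupper : ∀ x y, E x y ≤ (16 / 15) * (q * d x y) := by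
    have h1 := hd.gen (fun x y => (15 / (16 * q)) * E x y) (fun x => by simp only [hEself, mul_zero])
      (fun x y z => by
        have := mul_le_mul_of_nonneg_left (hEtri x y z) (by positivity : 0 ≤ 15 / (16 * q))
        linarith)
      (fun i hi x hx y hy => by
        by_cases hxy : x = y
        · subst hxy; simp only [hEself, mul_zero, hd.self, le_refl]
        · have h2 := (hround x y hxy i hi hx hy).2
          have h3 : E x y = |(H x : ℝ) - H y| := hbag i hi x hx y hy
          rw [← h3] at h2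
          have h4 := mul_le_mul_of_nonneg_left h2 (by positivity : 0 ≤ 15 / (16 * q))
          have h5 : 15 / (16 * q) * (16 / 15 * (q * d x y)) = d x y := by field_simp
          rw [h5] at h4
          exact h4)
    intro x y
    have h2 := mul_le_mul_of_nonneg_left (h1 x y) (by positivity : 0 ≤ 16 * q / 15)
    have h5 : 16 * q / 15 * (15 / (16 * q) * E x y) = E x y := by field_simp
    rw [h5] at h2
    linarith
  set t : ℝ := (7 * K) / ((14 / 15) * q) with ht
  have ht0 : 0 ≤ t := by positivity
  refine embeds_of_cuts (fun j => t * w j) c (fun j => mul_nonneg ht0 (hw j)) ?_ ?_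
  · intro x y
    have e : ∑ j, t * w j * (if c j x = c j y then (0 : ℝ) else 1) = t * E x y := by
      simp only [hE, Finset.mul_sum, mul_assoc]
    rw [e]
    have h1 := hlow x y
    have hE0 : 0 ≤ E x y := Finset.sum_nonneg (fun j _ => mul_nonneg (hw j) (by split_ifs <;> norm_num))
    have h2 : (14 / 15) * (q * d x y) ≤ 7 * K * E x y := by
      refine h1.trans (mul_le_mul_of_nonneg_right (by linarith) hE0)
    rw [ht, div_mul_eq_mul_div, le_div_iff₀ (by positivity)]
    linarith
  · intro x y
    have e : ∑ j, t * w j * (if c j x = c j y then (0 : ℝ) else 1) = t * E x y := by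
      simp only [hE, Finset.mul_sum, mul_assoc]
    rw [e]
    have h1 := mul_le_mul_of_nonneg_left (hupper x y) ht0
    refine h1.trans (le_of_eq ?_)
    rw [ht]
    field_simp
    ring

end VPRed
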