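/-
P235-M, helper168.  RED-LINE, part 4: path metrics of graphs.
-/
import Vale.Agent.P235.R2.H168.Bags

namespace VPRed

open Vale.Agent.P235

variable {V : Type} {G : SimpleGraph V} {ℓ : Sym2 V → ℝ}

theorem wn (hℓ : ∀ e ∈ G.edgeSet, 0 < ℓ e) {x y : V} (w : G.Walk x y) :
    0 ≤ (w.edges.map ℓ).sum := by
  apply List.sum_nonneg
  intro a ha
  rw [List.mem_map] at ha
  obtain ⟨e, he, rfl⟩ := ha
  exact (hℓ e (w.edges_subset_edgeSet he)).le

theorem pd_bdd (hℓ : ∀ e ∈ G.edgeSet, 0 < ℓ e) (x y : V) :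
    BddBelow (Set.range fun w : G.Walk x y => (w.edges.map ℓ).sum) :=
  ⟨0, by rintro _ ⟨w, rfl⟩; exact wn hℓ w⟩

theorem pd_le (hℓ : ∀ e ∈ G.edgeSet, 0 < ℓ e) {x y : V} (w : G.Walk x y) :
    pathDist G ℓ x y ≤ (w.edges.map ℓ).sum := ciInf_le (pd_bdd hℓ x y) w

theorem pd_adj (hℓ : ∀ e ∈ G.edgeSet, 0 < ℓ e) {x y : V} (h : G.Adj x y) :
    pathDist G ℓ x y ≤ ℓ s(x, y) := by
  have := pd_le hℓ h.toWalk
  simpa using this

theorem pd_gen (hc : G.Connected) {F : V → V → ℝ} (h0 : ∀ x, F x x = 0)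
    (ht : ∀ x y z, F x z ≤ F x y + F y z) (hF : ∀ u v, G.Adj u v → F u v ≤ ℓ s(u, v)) (x y : V) :
    F x y ≤ pathDist G ℓ x y := by
  have key : ∀ {x y : V} (w : G.Walk x y), F x y ≤ (w.edges.map ℓ).sum := by
    intro x y w
    induction w with
    | nil => simp [h0]
    | cons h p ih =>
      rw [SimpleGraph.Walk.edges_cons, List.map_cons, List.sum_cons]
      exact (ht _ _ _).trans (add_le_add (hF _ _ h) ih)
  have : Nonempty (G.Walk x y) := hc x y
  exact le_ciInf fun w => key w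

theorem pd_self (hc : G.Connected) (hℓ : ∀ e ∈ G.edgeSet, 0 < ℓ e) (x : V) :
    pathDist G ℓ x x = 0 := by
  apply le_antisymm
  · simpa using pd_le hℓ (SimpleGraph.Walk.nil : G.Walk x x)
  · have : Nonempty (G.Walk x x) := hc x x
    exact le_ciInf fun w => wn hℓ w

theorem pd_pos [Finite V] (hc : G.Connected) (hℓ : ∀ e ∈ G.edgeSet, 0 < ℓ e) (x y : V)
    (hxy : x ≠ y) : 0 < pathDist G ℓ x y := by
  have : Nonempty (G.Walk x y) := hc x y
  have hfin : (G.edgeSet).Finite := Set.toFinite _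
  obtain ⟨ε, hε, hle⟩ : ∃ ε > 0, ∀ e ∈ G.edgeSet, ε ≤ ℓ e := by
    rcases Set.eq_empty_or_nonempty G.edgeSet with h | h
    · exact ⟨1, one_pos, by simp [h]⟩
    · obtain ⟨e0, he0, hmin⟩ := hfin.exists_minimalFor ℓ _ h
      refine ⟨ℓ e0, hℓ e0 he0, fun e he => ?_⟩
      rcases le_total (ℓ e0) (ℓ e) with h' | h'
      · exact h'
      · exact hmin he h'
  refine hε.trans_le (le_ciInf fun w => ?_)
  cases w with
  | nil => exact absurd rfl hxy
  | cons h p =>
    rw [SimpleGraph.Walk.edges_cons, List.map_cons, List.sum_cons]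
    have := wn hℓ p
    have := hle _ (G.mem_edgeSet.mpr h)
    linarith

theorem pd_symm (hc : G.Connected) (hℓ : ∀ e ∈ G.edgeSet, 0 < ℓ e) (x y : V) :
    pathDist G ℓ x y = pathDist G ℓ y x := by
  have key : ∀ a b : V, pathDist G ℓ a b ≤ pathDist G ℓ b a := by
    intro a b
    have : Nonempty (G.Walk b a) := hc b a
    refine le_ciInf fun w => ?_
    refine (pd_le hℓ w.reverse).trans ?_
    rw [SimpleGraph.Walk.edges_reverse, List.map_reverse, List.sum_reverse]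
  exact le_antisymm (key x y) (key y x)

theorem pd_tri (hc : G.Connected) (hℓ : ∀ e ∈ G.edgeSet, 0 < ℓ e) (x y z : V) :
    pathDist G ℓ x z ≤ pathDist G ℓ x y + pathDist G ℓ y z := by
  have : Nonempty (G.Walk x y) := hc x y
  have : Nonempty (G.Walk y z) := hc y z
  have h1 : ∀ w : G.Walk y z, pathDist G ℓ x z - (w.edges.map ℓ).sum ≤ pathDist G ℓ x y := by
    intro w
    refine le_ciInf fun w' => ?_
    have := pd_le hℓ (w'.append w)
    rw [SimpleGraph.Walk.edges_append, List.map_append, List.sum_append] at this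
    linarith
  have h2 : pathDist G ℓ x z - pathDist G ℓ x y ≤ pathDist G ℓ y z := by
    refine le_ciInf fun w => ?_
    linarith [h1 w]
  linarith

theorem pd_bagGen [Finite V] (hc : G.Connected) (hℓ : ∀ e ∈ G.edgeSet, 0 < ℓ e) {N : ℕ}
    {B : ℕ → Set V} (hE : ∀ u v, G.Adj u v → ∃ i, i ≤ N ∧ u ∈ B i ∧ v ∈ B i) :
    BagGen (pathDist G ℓ) N B := by
  refine ⟨pd_self hc hℓ, pd_pos hc hℓ, pd_symm hc hℓ, pd_tri hc hℓ, ?_⟩
  intro F h0 ht hF
  refine pd_gen hc h0 ht (fun u v huv => ?_)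
  obtain ⟨i, hi, hu, hv⟩ := hE u v huv
  exact (hF i hi u hu v hv).trans (pd_adj hℓ huv)

/-- **The bag theorem for graphs.**  `G` finite connected with positive lengths, with a path
decomposition `B 0, ..., B N` (bags of any size) such that every bag is isometric, for the path
metric of `G`, to a subset of the real line. -/
theorem graph_embeds [Finite V] (hc : G.Connected) (hℓ : ∀ e ∈ G.edgeSet, 0 < ℓ e) {N : ℕ}
    {B : ℕ → Set V} (hB : LineBags (pathDist G ℓ) N B)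
    (hE : ∀ u v, G.Adj u v → ∃ i, i ≤ N ∧ u ∈ B i ∧ v ∈ B i) {f : ℕ → ℝ} (hf : Red.MStar f)
    (h1 : 1 ≤ f N) : EmbedsL1 (pathDist G ℓ) (8 * f N) :=
  bag_embeds hB (pd_bagGen hc hℓ hE) h1 (wordLaw_of_mStar hf N)

end VPRed
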