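/-
P235-M, helper168.  Plane graphs with a height function of slopes in [1/D, 1] and no local extremum
outside one face: no edge has to lie on a geodesic.
-/
import Vale.Agent.P235.R2.RED.Final
import Vale.Agent.P235.R2.H271.RowC
import Vale.Agent.P235.R2.H673.RowB

namespace Vale.Agent.P235.R2.H168

open Vale.Agent.P235 Vale.Agent.P235.Red

/-- the lengths given by a height function -/
noncomputable def hlen {V : Type} (h : V → ℝ) : Sym2 V → ℝ :=
  Sym2.lift ⟨fun u v => |h u - h v|, fun _ _ => abs_sub_comm _ _⟩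

theorem hlen_mk {V : Type} (h : V → ℝ) (u v : V) : hlen h s(u, v) = |h u - h v| := rfl

/-- a plane graph with the lengths of a height function whose only local extrema `s`, `t` lie on one
face -/
theorem plane_height {C : ℝ} (hC : 1 ≤ C) (hM : MStarLL C) (V : Type) [Finite V]
    (G : SimpleGraph V) (σ : Equiv.Perm G.Dart) (d₀ : G.Dart) (h : V → ℝ) (s t : V)
    (hc : G.Connected) (hP : PlaneMap G σ) (hs : s ∈ onFace σ d₀) (ht : t ∈ onFace σ d₀)
    (hU : UpDown G h s t) :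
    EmbedsL1 (pathDist G (hlen h)) (32 * C * ((ll (Nat.card V) : ℝ) + 1)) := by
  have hf : ∀ N, (0 : ℝ) ≤ C * ((ll N : ℝ) + 3) := fun N => by positivity
  have hpos : ∀ u v, G.Adj u v → 0 < hlen h s(u, v) := fun u v ha =>
    abs_pos.2 (sub_ne_zero.2 (hU.ne u v ha))
  have hℓ : ∀ e ∈ G.edgeSet, 0 < hlen h e := fun e he => by
    induction e with
    | _ u v => exact hpos u v he
  obtain ⟨P, hS⟩ := R2.H271.rowC V G σ d₀ h s t hc hP hs ht hU
  obtain ⟨Ω, m, μ, g, hg⟩ := bag_theorem hM hc hℓ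
    (R2.H673.bags_of_sweep hS (fun u v _ => rfl) hpos) (hf _)
  refine ⟨Ω, m, μ, g, fun x y => ⟨(hg x y).1, (hg x y).2.trans ?_⟩⟩
  refine mul_le_mul_of_nonneg_right ?_ (pd_nonneg hℓ x y)
  have h2 : (ll (Nat.card V ^ 2) : ℝ) ≤ (ll (Nat.card V) : ℝ) + 1 := by exact_mod_cast ll_sq _
  have h3 : C * (ll (Nat.card V ^ 2) : ℝ) ≤ C * ((ll (Nat.card V) : ℝ) + 1) :=
    mul_le_mul_of_nonneg_left h2 (by linarith)
  have : (0 : ℝ) ≤ C * (ll (Nat.card V) : ℝ) := mul_nonneg (by linarith) (Nat.cast_nonneg _)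
  linarith

/-- **Slopes in `[1/D, 1]`.**  A plane graph with arbitrary positive lengths `ℓ` and a function `h`
with `ℓ(uv)/D ≤ |h u - h v| ≤ ℓ(uv)` on all edges whose only local minimum `s` and only local maximum
`t` lie on one face. -/
theorem plane_slope {C : ℝ} (hC : 1 ≤ C) (hM : MStarLL C) (V : Type) [Finite V]
    (G : SimpleGraph V) (σ : Equiv.Perm G.Dart) (d₀ : G.Dart) (ℓ : Sym2 V → ℝ) (h : V → ℝ)
    (s t : V) (D : ℝ) (hD : 0 ≤ D) (hc : G.Connected) (hP : PlaneMap G σ) (hs : s ∈ onFace σ d₀)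
    (ht : t ∈ onFace σ d₀) (hU : UpDown G h s t)
    (h1 : ∀ u v, G.Adj u v → |h u - h v| ≤ ℓ s(u, v))
    (h2 : ∀ u v, G.Adj u v → ℓ s(u, v) ≤ D * |h u - h v|) :
    EmbedsL1 (pathDist G ℓ) (32 * C * D * ((ll (Nat.card V) : ℝ) + 1)) := by
  have hE := plane_height hC hM V G σ d₀ h s t hc hP hs ht hU
  have e1 : ∀ x y, pathDist G ℓ x y ≤ D * pathDist G (hlen h) x y :=
    R2.H673.pathDist_le_mul hD (fun u v ha => (abs_nonneg _).trans (h1 u v ha)) h2
  have e2 : ∀ x y, pathDist G (hlen h) x y ≤ 1 * pathDist G ℓ x y :=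
    R2.H673.pathDist_le_mul zero_le_one (fun u v _ => abs_nonneg _)
      (fun u v ha => by rw [one_mul]; exact h1 u v ha)
  refine R2.H673.embedsL1_scale hD hE e1 (fun x y => ?_)
  have h3 : (0 : ℝ) ≤ 32 * C * D * ((ll (Nat.card V) : ℝ) + 1) := by positivity
  have h4 := mul_le_mul_of_nonneg_left (e2 x y) h3
  rw [one_mul] at h4
  calc D * (32 * C * ((ll (Nat.card V) : ℝ) + 1) * pathDist G (hlen h) x y) =
      32 * C * D * ((ll (Nat.card V) : ℝ) + 1) * pathDist G (hlen h) x y := by ring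
    _ ≤ _ := h4

end Vale.Agent.P235.R2.H168
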